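import Vale.Agent.P230.Params

open Vale.Agent.P230

/-- In every large dimension `n` there is a convex body `K` with translative covering density
`θ_T(K) ≥ c n log n`; hence `Θ_T(n) ≥ c n log n`. Here `c` is an absolute constant
(the proof gives `c = 10⁻¹⁵`). -/
theorem Vale.Agent.Results.P230.NLogNLower.result :
    ∃ c : ℝ, 0 < c ∧ ∃ n₀ : ℕ, ∀ n ≥ n₀,
      (∃ K : Set (EuclideanSpace ℝ (Fin n)), IsBody K ∧
        ENNReal.ofReal (c * n * Real.log n) ≤ thetaT K) ∧
      ENNReal.ofReal (c * n * Real.log n) ≤ bigThetaT n := by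
  obtain ⟨n₀, h⟩ := main_bound
  refine ⟨c0, by norm_num [c0], n₀, fun n hn => ?_⟩
  obtain ⟨K, hK, hb⟩ := h n hn
  exact ⟨⟨K, hK, hb⟩, le_bigThetaT_of_body hK hb⟩
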