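import Vale.Agent.P230.Params

/-! P230: worst-case translative covering density is at least `c n log n`. -/

namespace Vale.Agent.Results.P230.NaszodiLower

open Vale.Agent.P230

/-- For all large `n` there is a convex body `K` in `ℝ^n` with `θ_T(K) ≥ c n log n`; hence
`Θ_T(n) ≥ c n log n`, and no absolute constant `C` satisfies `θ_T(K) ≤ C n` for all convex bodies
in all dimensions. -/
theorem result :
    (∃ c : ℝ, 0 < c ∧ ∃ n₀ : ℕ, ∀ n ≥ n₀,
      ∃ K : Set (EuclideanSpace ℝ (Fin n)), IsBody K ∧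
        ENNReal.ofReal (c * n * Real.log n) ≤ thetaT K ∧
        ENNReal.ofReal (c * n * Real.log n) ≤ bigThetaT n) ∧
    ¬ ∃ C : ℝ, ∀ (n : ℕ) (K : Set (EuclideanSpace ℝ (Fin n))), IsBody K →
      thetaT K ≤ ENNReal.ofReal (C * n) :=
  ⟨lower_bound, no_linear_bound⟩

end Vale.Agent.Results.P230.NaszodiLower
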